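import Vale.Agent.P240.R2.H275.Step
import Vale.Agent.P240.H195.Main

/-!
The conditions `Removable` and `JumpSub` are invariant under conjugation.
-/

set_option linter.all false

namespace Vale.Agent.P240.R2.H612

open Subgroup Vale.Agent.P240.K Vale.Agent.P240.H195 Vale.Agent.P240.R2.H275 Finsupp

universe u v

section
variable {𝕜 : Type v} [Field 𝕜] {G : Type u} [Group G] {p : ℕ}

lemma jumpSub_map {A B : Type u} [Group A] [Group B] {f : A →* B} (hf : Function.Injective f)
    {L : Subgroup A} (h : JumpSub 𝕜 p (L.map f)) : JumpSub 𝕜 p L := by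
  intro X hJ hXN hXC
  have h1 := h (X.map f) ((rankJump_map hf).2 hJ) (by
    rintro _ ⟨x, hx, rfl⟩
    exact map_norm (hXN hx)) (inf_cent_map hf hXC)
  rw [quillenDim_sub] at h1 ⊢
  obtain ⟨m, hm⟩ := h1
  exact ⟨m, (Tp_map hf X).1 hm⟩

lemma jumpSub_cj {L : Subgroup G} (h : JumpSub 𝕜 p L) (g : G) : JumpSub 𝕜 p (K.cj g L) := by
  refine jumpSub_map (f := (MulAut.conj g⁻¹).toMonoidHom) (MulAut.conj g⁻¹).injective ?_
  have : (K.cj g L).map (MulAut.conj g⁻¹).toMonoidHom = L := by
    change K.cj g⁻¹ (K.cj g L) = L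
    rw [← cj_mul, inv_mul_cancel, cj_one]
  rwa [this]

lemma sameOuter_cj {L : Subgroup G} {g x y : G}
    (h : SameOuter L (g⁻¹ * x * g) (g⁻¹ * y * g)) : SameOuter (K.cj g L) x y := by
  change y ∈ zpowers x ⊔ (K.cj g L ⊔ centralizer ((K.cj g L : Subgroup G) : Set G))
  have e1 : K.cj g (zpowers (g⁻¹ * x * g)) = zpowers x := by
    rw [K.cj, MonoidHom.map_zpowers]
    congr 1
    change g * (g⁻¹ * x * g) * g⁻¹ = x
    group
  have e2 : K.cj g (zpowers (g⁻¹ * x * g)) ⊔ (K.cj g L ⊔ K.cj g (centralizer (L : Set G))) =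
      K.cj g (zpowers (g⁻¹ * x * g) ⊔ (L ⊔ centralizer (L : Set G))) := by
    simp only [K.cj, Subgroup.map_sup]
  rw [cj_centralizer_eq, ← e1, e2, mem_cj]
  exact h

lemma fewOuter_cj {L : Subgroup G} (h : FewOuter p L) (g : G) : FewOuter p (K.cj g L) := by
  obtain ⟨h1, h2⟩ := h
  refine ⟨fun x y z hx hy hz => ?_, ?_⟩
  · rcases h1 _ _ _ (outer_cj hx) (outer_cj hy) (outer_cj hz) with h | h | h
    · exact Or.inl (sameOuter_cj h)
    · exact Or.inr (Or.inl (sameOuter_cj h))
    · exact Or.inr (Or.inr (sameOuter_cj h))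
  · rcases h2 with h2 | h2 | h2
    · exact Or.inl fun x y hx hy => sameOuter_cj (h2 _ _ (outer_cj hx) (outer_cj hy))
    · right
      left
      intro y hy
      rw [H148.mem_normalizer_cj]
      apply h2
      have e : (g⁻¹ * y * g) ^ p = g⁻¹ * y ^ p * g := by
        have := conj_pow (i := p) (a := g⁻¹) (b := y)
        rwa [inv_inv] at this
      rw [e, hy]
      group
    · right
      right
      intro A B
      set e : L ≃* (K.cj g L : Subgroup G) :=
        L.equivMapOfInjective (MulAut.conj g).toMonoidHom (MulAut.conj g).injective with he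
      have hmap : ∀ E : Ap p L, E.1.map e.toMonoidHom ≠ ⊥ ∧
          (∀ x ∈ E.1.map e.toMonoidHom, ∀ y ∈ E.1.map e.toMonoidHom, x * y = y * x) ∧
          ∀ x ∈ E.1.map e.toMonoidHom, x ^ p = 1 := by
        intro E
        exact (map_mem_ApS (f := e.toMonoidHom) e.injective).2 E.2
      have hmap' : ∀ E : Ap p (K.cj g L : Subgroup G), E.1.comap e.toMonoidHom ≠ ⊥ ∧
          (∀ x ∈ E.1.comap e.toMonoidHom, ∀ y ∈ E.1.comap e.toMonoidHom, x * y = y * x) ∧
          ∀ x ∈ E.1.comap e.toMonoidHom, x ^ p = 1 := by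
        intro E
        refine (map_mem_ApS (f := e.toMonoidHom) e.injective).1 ?_
        rw [Subgroup.map_comap_eq_self_of_surjective e.surjective]
        exact E.2
      set F : Ap p L → Ap p (K.cj g L : Subgroup G) := fun E => ⟨E.1.map e.toMonoidHom, hmap E⟩
        with hF
      set F' : Ap p (K.cj g L : Subgroup G) → Ap p L := fun E => ⟨E.1.comap e.toMonoidHom, hmap' E⟩
        with hF'
      have hFF : ∀ E, F (F' E) = E := fun E => Subtype.ext
        (Subgroup.map_comap_eq_self_of_surjective e.surjective E.1)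
      have h3 : Relation.ReflTransGen (fun X Y : Ap p (K.cj g L : Subgroup G) => X ≤ Y ∨ Y ≤ X)
          (F (F' A)) (F (F' B)) := by
        refine Relation.ReflTransGen.lift F ?_ _ _ (h2 (F' A) (F' B))
        intro X Y hXY
        rcases hXY with h | h
        · exact Or.inl (Subgroup.map_mono (f := e.toMonoidHom) h)
        · exact Or.inr (Subgroup.map_mono (f := e.toMonoidHom) h)
      rwa [hFF, hFF] at h3

lemma almostSimpleHQ_cj {L : Subgroup G} (h : AlmostSimpleHQ 𝕜 p L) (g : G) :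
    AlmostSimpleHQ 𝕜 p (K.cj g L) := by
  intro A hA hinn
  set e : L ≃* (K.cj g L : Subgroup G) :=
    L.equivMapOfInjective (MulAut.conj g).toMonoidHom (MulAut.conj g).injective with he
  have hecoe : ∀ y : L, ((e y : (K.cj g L : Subgroup G)) : G) = g * y * g⁻¹ := fun y => rfl
  set f : MulAut L →* MulAut (K.cj g L : Subgroup G) := (MulAut.congr e).toMonoidHom with hf
  have hinj : Function.Injective f := (MulAut.congr e).injective
  have hsurj : Function.Surjective f := (MulAut.congr e).surjective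
  have hfa : ∀ (a : MulAut L) (y : L), f a (e y) = e (a y) := by
    intro a y
    simp [hf, MulAut.congr]
  have h1 : (A.comap f).map f = A := Subgroup.map_comap_eq_self_of_surjective hsurj A
  rw [← h1, HQ_map hinj]
  refine h _ ?_ ?_
  · intro a ha
    obtain ⟨⟨x, hx⟩, hxa⟩ := hA (Subgroup.mem_comap.1 ha)
    refine ⟨⟨g⁻¹ * x * g, H148.mem_normalizer_cj.1 hx⟩, ?_⟩
    ext y
    have h2 : ((f a (e y) : (K.cj g L : Subgroup G)) : G) = x * (g * y * g⁻¹) * x⁻¹ := by
      rw [← hxa]
      rfl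
    rw [hfa, hecoe] at h2
    change (g⁻¹ * x * g) * (y : G) * (g⁻¹ * x * g)⁻¹ = ((a y : L) : G)
    have h3 : ((a y : L) : G) = g⁻¹ * (g * ((a y : L) : G) * g⁻¹) * g := by group
    rw [h3, h2]
    group
  · intro l
    rw [Subgroup.mem_comap]
    have h2 : f (MulAut.conj l) = MulAut.conj (e l) := by
      ext z
      obtain ⟨z, rfl⟩ := e.surjective z
      rw [hfa]
      simp
    rw [h2]
    exact hinn _

lemma removable_cj {L : Subgroup G} (h : Removable 𝕜 p L) (g : G) : Removable 𝕜 p (K.cj g L) := by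
  rcases h with h | ⟨q, h1, h2, h3, h4⟩
  · exact Or.inl ⟨fewOuter_cj h.1 g, almostSimpleHQ_cj h.2 g⟩
  · exact Or.inr ⟨q, h1, h2, h3, H148.freeSub_cj h4 g⟩

end

end Vale.Agent.P240.R2.H612
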