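import Vale.Agent.P240.R2.H487.NT2
import Vale.Agent.P240.R2.H612.Cj

/-!
The structure of a counterexample of smallest order.
-/

set_option linter.all false

namespace Vale.Agent.P240.R2.H612

open Subgroup Vale.Agent.P240.K Vale.Agent.P240.H195
open Vale.Agent.P240.R2.H63 Vale.Agent.P240.R2.H275 Vale.Agent.P240.R2.H487

universe u v

section
variable {G : Type u} [Group G] {p : ℕ}

lemma card_lt_of_ne_top [Finite G] {H : Subgroup G} (h : H ≠ ⊤) : Nat.card H < Nat.card G := by
  rcases lt_or_eq_of_le (Subgroup.card_le_card_group H) with h1 | h1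
  · exact h1
  · exact absurd (Subgroup.eq_top_of_card_eq H h1) h

lemma card_reduced_lt [Finite G] (N : Subgroup G) [N.Normal] (hN : N ≠ ⊥) :
    Nat.card (Reduced N) < Nat.card G := by
  have h1 : Nat.card (centralizer (N : Set G)) =
      Nat.card (Reduced N) * Nat.card (N.subgroupOf (centralizer (N : Set G))) :=
    Subgroup.card_eq_card_quotient_mul_card_subgroup _
  have h2 : Nat.card (centralizer (N : Set G)) ≤ Nat.card G := Subgroup.card_le_card_group _
  have h3 : 0 < Nat.card (Reduced N) := Nat.card_pos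
  by_cases hC : centralizer (N : Set G) = ⊤
  · have h4 : 1 < Nat.card (N.subgroupOf (centralizer (N : Set G))) := by
      rw [Subgroup.one_lt_card_iff_ne_bot]
      intro h0
      rw [Subgroup.subgroupOf_eq_bot, hC, disjoint_top] at h0
      exact hN h0
    nlinarith
  · have h5 := card_lt_of_ne_top hC
    have h6 : 0 < Nat.card (N.subgroupOf (centralizer (N : Set G))) := Nat.card_pos
    nlinarith

lemma cenAll_normal {D : Set (Subgroup G)}
    (hconj : ∀ L ∈ D, ∀ g : G, L.map (MulAut.conj g).toMonoidHom ∈ D) : (CenAll D).Normal := by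
  constructor
  intro n hn g
  rw [CenAll_eq, mem_Cen] at hn ⊢
  intro L hL
  rw [mem_centralizer_iff]
  intro y hy
  have h1 := mem_centralizer_iff.1 (hn _ (hconj L hL g⁻¹)) (g⁻¹ * y * g)
    ⟨y, hy, by simp [MulAut.conj_apply]⟩
  calc y * (g * n * g⁻¹) = g * ((g⁻¹ * y * g) * n) * g⁻¹ := by group
    _ = g * (n * (g⁻¹ * y * g)) * g⁻¹ := by rw [h1]
    _ = g * n * g⁻¹ * y := by group

/-- in a counterexample of smallest order, there are no normal `p'`-subgroups -/
theorem min_opPrime {𝕜 : Type v} [Field 𝕜] [hp : Fact p.Prime] [Finite G]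
    (hO : OpTrivial p G) (hG : ¬ HQ 𝕜 p G)
    (hmin : ∀ (H : Type u) [Group H] [Finite H], Nat.card H < Nat.card G → OpTrivial p H →
      HQ 𝕜 p H) : OpPrimeTrivial p G := by
  intro N hNn hN
  by_contra hne
  haveI := hNn
  exact hG (reduce_all' N hN (hmin (Reduced N) (card_reduced_lt N hne) (reduced_op hO N hN)))

/-- the conditions under which a component can be eliminated alone -/
def Elim (𝕜 : Type v) [Field 𝕜] (p : ℕ) (L : Subgroup G) : Prop :=
  LocN p L ∨ Removable 𝕜 p L ∨ RigidLie p L ∨ ((p : 𝕜) = 0 ∧ JumpSub 𝕜 p L) ∨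
    (p = 2 ∧ PauliPSL L)

lemma Elim.cj {𝕜 : Type v} [Field 𝕜] {L : Subgroup G} (h : Elim 𝕜 p L) (g : G) :
    Elim 𝕜 p (K.cj g L) := by
  rcases h with h | h | h | h | h
  · exact Or.inl (h.cj g)
  · exact Or.inr (Or.inl (removable_cj h g))
  · exact Or.inr (Or.inr (Or.inl (rigidLie_cj h)))
  · exact Or.inr (Or.inr (Or.inr (Or.inl ⟨h.1, jumpSub_cj h.2 g⟩)))
  · obtain ⟨h1, n, a, F, i1, i2, h2, h3, h4, h5, ⟨e⟩⟩ := h
    exact Or.inr (Or.inr (Or.inr (Or.inr ⟨h1, n, a, F, i1, i2, h2, h3, h4, h5,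
      ⟨e.trans (L.equivMapOfInjective (MulAut.conj g).toMonoidHom (MulAut.conj g).injective)⟩⟩)))

/-- **Minimal counterexamples.** -/
theorem minimal_main {𝕜 : Type v} [Field 𝕜] [hp : Fact p.Prime] [Finite G]
    (hO : OpTrivial p G) (hG : ¬ HQ 𝕜 p G)
    (hmin : ∀ (H : Type u) [Group H] [Finite H], Nat.card H < Nat.card G → OpTrivial p H →
      HQ 𝕜 p H) :
    OpPrimeTrivial p G ∧ (∀ L ∈ Q.Comp G, ¬ Elim 𝕜 p L) ∧
    ∀ l : ℕ, l.Prime → ∃ L ∈ Q.Comp G, ¬ ListedP 𝕜 p l L := by
  have hO' := min_opPrime hO hG hmin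
  have hF := comp_family hO hO'
  refine ⟨hO', fun L hL hEl => ?_, fun l hl => ?_⟩
  · set D : Set (Subgroup G) := {M | ∃ g : G, M = K.cj g L} with hD'
    have hD : D ⊆ Q.Comp G := by
      rintro _ ⟨g, rfl⟩
      exact hF.conj L hL g
    have hLD : L ∈ D := ⟨1, (K.cj_one L).symm⟩
    have hconj : ∀ M ∈ D, ∀ g : G, M.map (MulAut.conj g).toMonoidHom ∈ D := by
      rintro _ ⟨g, rfl⟩ h
      exact ⟨h * g, (K.cj_mul h g L).symm⟩
    have hcen : ∀ L ∈ D, ∀ x ∈ L, (∀ y ∈ L, x * y = y * x) → x = 1 := by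
      intro L hL x hx h
      have h1 : x ∈ L ⊓ centralizer (L : Set G) :=
        mem_inf.2 ⟨hx, mem_centralizer_iff.2 fun y hy => (h y hy).symm⟩
      rw [hF.centre L (hD hL)] at h1
      exact mem_bot.1 h1
    refine hG (family_elimP hconj (fun L hL M hM => hF.comm L (hD hL) M (hD hM)) hcen
      (fun L hL => hF.dvd L (hD hL)) ?_ ?_)
    · rintro _ ⟨g, rfl⟩
      rcases hEl.cj g with h | h | h | h | h
      · exact Or.inl h
      · exact Or.inr (Or.inl h)
      · exact Or.inr (Or.inr (Or.inl h))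
      · exact Or.inr (Or.inr (Or.inr (Or.inl h)))
      · exact Or.inr (Or.inr (Or.inr (Or.inr
          ⟨h.1, (comp_factor hO hO' (hD ⟨g, rfl⟩)).1, h.2⟩)))
    · have hCn := cenAll_normal hconj
      refine hmin (CenAll D) (card_lt_of_ne_top fun htop => ?_) ?_
      · have h1 : L ≤ ⊥ := by
          intro x hx
          have h2 : x ∈ CenAll D := by rw [htop]; exact mem_top x
          rw [CenAll_eq, mem_Cen] at h2
          exact mem_bot.2 (hcen L hLD x hx fun y hy =>
            ((mem_centralizer_iff.1 (h2 L hLD)) y hy).symm)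
        have h3 := hF.dvd L hL
        rw [le_bot_iff.1 h1, Subgroup.card_bot] at h3
        exact hp.out.one_lt.ne' (Nat.dvd_one.1 h3)
      · exact opTrivial_of_opIn
          (OpIn.descend le_top (fun m _ h hh => hCn.conj_mem _ hh m) (opIn_top hO))
  · by_contra hcon
    push Not at hcon
    exact hG (handled_mainP hO hO' hl fun L hL => listed_handledP hO hO' hL (hcon L hL))

end

end Vale.Agent.P240.R2.H612
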