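import Vale.Agent.P240.R2.H612.Num
import Vale.Agent.P240.R2.H939.L3b

/-!
LEMMA T (P240, crux 11): the top space is not zero.
-/

namespace Vale.Agent.P240.LT

open Module

universe u v w

/-- **LEMMA T**, abstract form: `T ⊥` is not zero. -/
theorem main {A : Type u} [Group A] [Finite A] {Ω : Type v} [Fintype Ω] {𝕜 : Type w} [Field 𝕜]
    {p : ℕ} (S : Sys p A Ω) (hp : p.Prime) (hn : ∀ X : Subgroup A, X.Normal) [Nonempty Ω]
    {n : ℕ} (hk : Nat.card A = p ^ n) : ∃ z ∈ T 𝕜 p S.r n ⊥, z ≠ 0 :=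
  main_of S hp hn (fun hH hBH hk hact hperm => H939.comm_case' S
    (fun _ _ B k d hH hH1 hne hBH hBH1 hk hd h => lift_of hp hn hH hH1 hne k B d hBH hBH1 hk hd h)
    hp hn hH hBH hk hact hperm) hk

end Vale.Agent.P240.LT
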