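import Vale.Agent.P240.R2.H121.Ineq

/-!
LEMMA T (P240, crux 11): the numerical induction. From the inequality `ineq2` (two hyperplanes) and
the permutable case (a hypothesis here) the top space `T ⊥` is not zero.
-/

namespace Vale.Agent.P240.LT

open Module

universe u v w

section card
variable {A : Type u} [Group A] [Finite A]

lemma card_pos' (X : Subgroup A) : 0 < Nat.card X := Nat.card_pos

lemma relIndex_hyp {p : ℕ} (hp : p.Prime) {H Z : Subgroup A} (hH : Hyp p H) (hN : H.Normal)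
    (hZ : ¬ Z ≤ H) : H.relIndex Z = p := by
  have hi : H.index = p := by
    have h1 := H.card_mul_index
    rw [hH, mul_comm] at h1
    exact Nat.eq_of_mul_eq_mul_right (card_pos' H) h1
  have h2 : H.relIndex Z ∣ p := hi ▸ H.relIndex_dvd_index_of_normal Z
  rcases (Nat.dvd_prime hp).1 h2 with h | h
  · exact absurd (Subgroup.relIndex_eq_one.1 h) hZ
  · exact h

lemma card_inf_hyp {p : ℕ} (hp : p.Prime) {H Z : Subgroup A} (hH : Hyp p H) (hN : H.Normal)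
    (hZ : ¬ Z ≤ H) : Nat.card Z = p * Nat.card (Z ⊓ H : Subgroup A) := by
  have h1 := Subgroup.relIndex_mul_relIndex ⊥ (Z ⊓ H) Z bot_le inf_le_left
  rw [Subgroup.relIndex_bot_left, Subgroup.relIndex_bot_left, Subgroup.inf_relIndex_left,
    relIndex_hyp hp hH hN hZ] at h1
  rw [← h1, mul_comm]

end card

section dim
variable {A : Type u} [Group A] [Finite A] {Ω : Type v} [Fintype Ω] {𝕜 : Type w} [Field 𝕜]
variable {p : ℕ} {r : Subgroup A → Setoid Ω}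

/-- `T 0 B` is the space of all functions on `Ω`. -/
noncomputable def TZero (𝕜 : Type w) [Field 𝕜] (p : ℕ) (r : Subgroup A → Setoid Ω)
    (B : Subgroup A) : T 𝕜 p r 0 B ≃ₗ[𝕜] (Ω → 𝕜) where
  toFun z := z.1 []
  map_add' _ _ := rfl
  map_smul' _ _ := rfl
  invFun f := ⟨fun l => if l = [] then f else 0, mem_T_zero.2 fun l hl => by simp [hl]⟩
  left_inv z := by
    apply Subtype.ext
    funext l
    by_cases hl : l = []
    · simp [hl]
    · simp only [hl, if_false]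
      exact (mem_T_zero.1 z.2 l hl).symm
  right_inv f := by simp

lemma finrank_T_zero (B : Subgroup A) : finrank 𝕜 (T 𝕜 p r 0 B) = Fintype.card Ω := by
  rw [(TZero 𝕜 p r B).finrank_eq, Module.finrank_pi]

end dim

section count
variable {A : Type u} [Group A] [Finite A]

/-- The correspondence `(Y, Z) ↦ (Z ⊓ H₁, Z)`. -/
lemma pair_aux {p : ℕ} (hp : p.Prime) (hn : ∀ X : Subgroup A, X.Normal) {H H1 B Y Z : Subgroup A}
    (hH : Hyp p H) (hH1 : Hyp p H1) (hB1 : B ≤ H1) (hY : Y ∈ par p B) (hYH : Y ≤ H)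
    (hY1 : ¬ Y ≤ H1) (hZ : Z ∈ par p Y) (hZH : ¬ Z ≤ H) :
    (Z ⊓ H1 ∈ par p B ∧ Z ⊓ H1 ≤ H1 ∧ ¬ Z ⊓ H1 ≤ H) ∧ (Z ∈ par p (Z ⊓ H1) ∧ ¬ Z ≤ H1) ∧
      Z ⊓ H = Y := by
  obtain ⟨hBY, hcY⟩ := mem_par.1 hY
  obtain ⟨hYZ, hcZ⟩ := mem_par.1 hZ
  have hZ1 : ¬ Z ≤ H1 := fun h => hY1 (hYZ.trans h)
  have c1 := card_inf_hyp hp hH1 (hn H1) hZ1
  have c0 := card_inf_hyp hp hH (hn H) hZH
  have hpp : 0 < p := hp.pos
  have e0 : Z ⊓ H = Y := by
    symm
    refine eq_of_le_card (le_inf hYZ hYH) ?_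
    rw [hcZ] at c0
    exact Nat.eq_of_mul_eq_mul_left hpp c0
  have c2 : Nat.card (Z ⊓ H1 : Subgroup A) = Nat.card Y := by
    rw [hcZ] at c1
    exact (Nat.eq_of_mul_eq_mul_left hpp c1).symm
  refine ⟨⟨mem_par.2 ⟨le_inf (hBY.trans hYZ) hB1, c2.trans hcY⟩, inf_le_right, fun h => ?_⟩,
    ⟨mem_par.2 ⟨inf_le_left, c1⟩, hZ1⟩, e0⟩
  have h2 : Z ⊓ H1 = Y := by
    refine eq_of_le_card ?_ c2
    rw [← e0]
    exact le_inf inf_le_left h
  exact hY1 (h2 ▸ inf_le_right)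

open Classical in
/-- Double counting. -/
lemma double_count {p : ℕ} (hp : p.Prime) (hn : ∀ X : Subgroup A, X.Normal) {H H1 B : Subgroup A}
    (hH : Hyp p H) (hH1 : Hyp p H1) (hBH : B ≤ H) (hB1 : B ≤ H1) (t : Subgroup A → ℕ) :
    ∑ Y ∈ (par p B).filter (fun Y => Y ≤ H ∧ ¬ Y ≤ H1),
        ∑ Z ∈ (par p Y).filter (fun Z => ¬ Z ≤ H), t Z =
      ∑ X ∈ (par p B).filter (fun X => X ≤ H1 ∧ ¬ X ≤ H),
        ∑ Z ∈ (par p X).filter (fun Z => ¬ Z ≤ H1), t Z := by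
  rw [Finset.sum_sigma', Finset.sum_sigma']
  refine Finset.sum_bij' (fun a _ => ⟨a.2 ⊓ H1, a.2⟩) (fun a _ => ⟨a.2 ⊓ H, a.2⟩) ?_ ?_ ?_ ?_ ?_
  · rintro ⟨Y, Z⟩ ha
    simp only [Finset.mem_sigma, Finset.mem_filter] at ha ⊢
    obtain ⟨⟨hY, hYH, hY1⟩, hZ, hZH⟩ := ha
    obtain ⟨⟨h1, h2, h3⟩, ⟨h4, h5⟩, h6⟩ := pair_aux hp hn hH hH1 hB1 hY hYH hY1 hZ hZH
    exact ⟨⟨h1, h2, h3⟩, h4, h5⟩
  · rintro ⟨X, Z⟩ ha
    simp only [Finset.mem_sigma, Finset.mem_filter] at ha ⊢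
    obtain ⟨⟨hY, hYH, hY1⟩, hZ, hZH⟩ := ha
    obtain ⟨⟨h1, h2, h3⟩, ⟨h4, h5⟩, h6⟩ := pair_aux hp hn hH1 hH hBH hY hYH hY1 hZ hZH
    exact ⟨⟨h1, h2, h3⟩, h4, h5⟩
  · rintro ⟨Y, Z⟩ ha
    simp only [Finset.mem_sigma, Finset.mem_filter] at ha
    obtain ⟨⟨hY, hYH, hY1⟩, hZ, hZH⟩ := ha
    obtain ⟨-, -, h6⟩ := pair_aux hp hn hH hH1 hB1 hY hYH hY1 hZ hZH
    simp only [h6]
  · rintro ⟨X, Z⟩ ha
    simp only [Finset.mem_sigma, Finset.mem_filter] at ha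
    obtain ⟨⟨hY, hYH, hY1⟩, hZ, hZH⟩ := ha
    obtain ⟨-, -, h6⟩ := pair_aux hp hn hH1 hH hBH hY hYH hY1 hZ hZH
    simp only [h6]
  · rintro ⟨Y, Z⟩ ha
    rfl

end count

section main
variable {A : Type u} [Group A] [Finite A] {Ω : Type v} [Fintype Ω] {𝕜 : Type w} [Field 𝕜]
variable {p : ℕ}

open Classical in
/-- The numerical induction: `dim D_H(B) ≤ 2 dim T(B)`. -/
theorem two_mul (S : Sys p A Ω) (hp : p.Prime) (hn : ∀ X : Subgroup A, X.Normal)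
    (comm_case : ∀ {H B : Subgroup A} {k : ℕ}, Hyp p H → B ≤ H →
      Nat.card A = p ^ (k + 1) * Nat.card B → (∃ x y, S.r H x y ∧ x ≠ y) →
      (∀ H', Hyp p H' → B ≤ H' → H' ≠ H → ∀ x y z, S.r H x y → S.r H' y z →
        ∃ y', S.r H' x y' ∧ S.r H y' z) →
      finrank 𝕜 (D 𝕜 p S.r H k B) ≤ 2 * finrank 𝕜 (T 𝕜 p S.r (k + 1) B)) :
    ∀ (k : ℕ) (B H : Subgroup A), Hyp p H → B ≤ H → Nat.card A = p ^ (k + 1) * Nat.card B →
      (∃ x y, S.r H x y ∧ x ≠ y) →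
      finrank 𝕜 (D 𝕜 p S.r H k B) ≤ 2 * finrank 𝕜 (T 𝕜 p S.r (k + 1) B) := by
  intro k
  induction k with
  | zero =>
    intro B H hH hBH hk hact
    refine comm_case hH hBH hk hact fun H' hH' hBH' hne => ?_
    exfalso
    apply hne
    rw [zero_add, pow_one] at hk
    have e1 : B = H := eq_of_le_card hBH (Nat.eq_of_mul_eq_mul_left hp.pos (hk.symm.trans hH))
    have e2 : B = H' := eq_of_le_card hBH' (Nat.eq_of_mul_eq_mul_left hp.pos (hk.symm.trans hH'))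
    rw [← e1, ← e2]
  | succ k ih =>
    intro B H hH hBH hk hact
    by_cases hperm : ∀ H', Hyp p H' → B ≤ H' → H' ≠ H → ∀ x y z, S.r H x y → S.r H' y z →
        ∃ y', S.r H' x y' ∧ S.r H y' z
    · exact comm_case hH hBH hk hact hperm
    push Not at hperm
    obtain ⟨H1, hH1, hBH1, hne, x, y, z, hxy, hyz, hno⟩ := hperm
    have hact1 : ∃ x y, S.r H1 x y ∧ x ≠ y := by
      refine ⟨y, z, hyz, fun h => ?_⟩
      subst h
      exact hno x (Setoid.refl' _ x) hxy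
    obtain ⟨H2, hH2, hle, hne2, hne21, hact2⟩ : ∃ H2, Hyp p H2 ∧ H ⊓ H1 ≤ H2 ∧ H2 ≠ H ∧ H2 ≠ H1 ∧
        ∃ x y, S.r H2 x y ∧ x ≠ y := by
      by_contra hc
      push Not at hc
      obtain ⟨y', h1, h2⟩ := S.W H H1 hH hH1 hne.symm
        (fun H'' h1 h2 h3 h4 x y => hc H'' h1 h2 h3 h4 x y) x y z hxy hyz
      exact hno y' h1 h2
    have hBH2 : B ≤ H2 := (le_inf hBH hBH1).trans hle
    -- the bound for each of the two hyperplanes
    have key : ∀ G : Subgroup A, Hyp p G → B ≤ G → G ≠ H → (∃ x y, S.r G x y ∧ x ≠ y) →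
        finrank 𝕜 (D 𝕜 p S.r H (k + 1) B) ≤ finrank 𝕜 (T 𝕜 p S.r (k + 2) B) +
          ∑ X ∈ (par p B).filter (fun X => X ≤ G ∧ ¬ X ≤ H), finrank 𝕜 (T 𝕜 p S.r (k + 1) X) := by
      intro G hG hBG hGH hactG
      have hcardpar : ∀ Y ∈ par p B, Nat.card A = p ^ (k + 1) * Nat.card Y := by
        intro Y hY
        rw [hk, (mem_par.1 hY).2]
        ring
      have h1 := ineq2 (𝕜 := 𝕜) (r := S.r) hp hn hH hG hGH.symm hBH hBG hk
      have h2 : 2 * ∑ Y ∈ (par p B).filter (fun Y => Y ≤ H ∧ ¬ Y ≤ G),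
          (finrank 𝕜 (D 𝕜 p S.r H k Y) - finrank 𝕜 (T 𝕜 p S.r (k + 1) Y)) ≤
          ∑ Y ∈ (par p B).filter (fun Y => Y ≤ H ∧ ¬ Y ≤ G), finrank 𝕜 (D 𝕜 p S.r H k Y) := by
        rw [Finset.mul_sum]
        refine Finset.sum_le_sum fun Y hY => ?_
        obtain ⟨hY, hYH, -⟩ := Finset.mem_filter.1 hY
        have := ih Y H hH hYH (hcardpar Y hY) hact
        omega
      have h3 : ∑ Y ∈ (par p B).filter (fun Y => Y ≤ H ∧ ¬ Y ≤ G), finrank 𝕜 (D 𝕜 p S.r H k Y) =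
          ∑ X ∈ (par p B).filter (fun X => X ≤ G ∧ ¬ X ≤ H), finrank 𝕜 (D 𝕜 p S.r G k X) := by
        simp only [finrank_D]
        exact double_count hp hn hH hG hBH hBG fun Z => finrank 𝕜 (T 𝕜 p S.r k Z)
      have h4 : ∑ X ∈ (par p B).filter (fun X => X ≤ G ∧ ¬ X ≤ H),
          finrank 𝕜 (D 𝕜 p S.r G k X) ≤
          2 * ∑ X ∈ (par p B).filter (fun X => X ≤ G ∧ ¬ X ≤ H),
            finrank 𝕜 (T 𝕜 p S.r (k + 1) X) := by
        rw [Finset.mul_sum]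
        refine Finset.sum_le_sum fun X hX => ?_
        obtain ⟨hX, hXG, -⟩ := Finset.mem_filter.1 hX
        exact ih X G hG hXG (hcardpar X hX) hactG
      omega
    have k1 := key H1 hH1 hBH1 hne hact1
    have k2 := key H2 hH2 hBH2 hne2 hact2
    have hd : Disjoint ((par p B).filter fun X => X ≤ H1 ∧ ¬ X ≤ H)
        ((par p B).filter fun X => X ≤ H2 ∧ ¬ X ≤ H) := by
      rw [Finset.disjoint_left]
      intro X h1 h2
      obtain ⟨-, hX1, hXH⟩ := Finset.mem_filter.1 h1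
      obtain ⟨-, hX2, -⟩ := Finset.mem_filter.1 h2
      apply hXH
      -- `H1 ⊓ H2 = H ⊓ H1`
      have n1 : ¬ H1 ≤ H := fun h => hne (eq_of_le_card h (Nat.eq_of_mul_eq_mul_left hp.pos
        (hH1.symm.trans hH)))
      have n2 : ¬ H1 ≤ H2 := fun h => hne21 (eq_of_le_card h (Nat.eq_of_mul_eq_mul_left hp.pos
        (hH1.symm.trans hH2))).symm
      have c1 := card_inf_hyp hp hH (hn H) n1
      have c2 := card_inf_hyp hp hH2 (hn H2) n2
      have e : H1 ⊓ H = H1 ⊓ H2 := by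
        refine eq_of_le_card (le_inf inf_le_left ?_) (Nat.eq_of_mul_eq_mul_left hp.pos
          (c1.symm.trans c2))
        rw [inf_comm]
        exact hle
      have : X ≤ H1 ⊓ H := e ▸ le_inf hX1 hX2
      exact this.trans inf_le_right
    have hs : ∑ X ∈ (par p B).filter (fun X => X ≤ H1 ∧ ¬ X ≤ H),
        finrank 𝕜 (T 𝕜 p S.r (k + 1) X) +
        ∑ X ∈ (par p B).filter (fun X => X ≤ H2 ∧ ¬ X ≤ H), finrank 𝕜 (T 𝕜 p S.r (k + 1) X) ≤
        finrank 𝕜 (D 𝕜 p S.r H (k + 1) B) := by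
      rw [← Finset.sum_union hd, finrank_D]
      refine Finset.sum_le_sum_of_subset_of_nonneg ?_ fun _ _ _ => Nat.zero_le _
      intro X hX
      rcases Finset.mem_union.1 hX with h | h
      · exact Finset.mem_filter.2 ⟨(Finset.mem_filter.1 h).1, (Finset.mem_filter.1 h).2.2⟩
      · exact Finset.mem_filter.2 ⟨(Finset.mem_filter.1 h).1, (Finset.mem_filter.1 h).2.2⟩
    have : k + 1 + 1 = k + 2 := rfl
    rw [this]
    omega

open Classical in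
/-- The top space is not zero. -/
theorem main_of (S : Sys p A Ω) (hp : p.Prime) (hn : ∀ X : Subgroup A, X.Normal) [Nonempty Ω]
    (comm_case : ∀ {H B : Subgroup A} {k : ℕ}, Hyp p H → B ≤ H →
      Nat.card A = p ^ (k + 1) * Nat.card B → (∃ x y, S.r H x y ∧ x ≠ y) →
      (∀ H', Hyp p H' → B ≤ H' → H' ≠ H → ∀ x y z, S.r H x y → S.r H' y z →
        ∃ y', S.r H' x y' ∧ S.r H y' z) →
      finrank 𝕜 (D 𝕜 p S.r H k B) ≤ 2 * finrank 𝕜 (T 𝕜 p S.r (k + 1) B))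
    {n : ℕ} (hk : Nat.card A = p ^ n) : ∃ z ∈ T 𝕜 p S.r n ⊥, z ≠ 0 := by
  have h : ∀ k, k ≤ n → ∃ B : Subgroup A, Nat.card A = p ^ k * Nat.card B ∧
      0 < finrank 𝕜 (T 𝕜 p S.r k B) := by
    intro k
    induction k with
    | zero =>
      intro _
      refine ⟨⊤, by simp, ?_⟩
      rw [finrank_T_zero]
      exact Fintype.card_pos
    | succ k ih =>
      intro hkn
      obtain ⟨B, hB, hpos⟩ := ih (Nat.le_of_succ_le hkn)
      have hBne : B ≠ ⊥ := by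
        rintro rfl
        rw [Subgroup.card_bot, mul_one, hk] at hB
        have := Nat.pow_right_injective hp.two_le hB
        omega
      obtain ⟨H, hH, hBH, hact⟩ := S.gen B hBne
      have hc := card_inf_hyp hp hH (hn H) hBH
      refine ⟨B ⊓ H, ?_, ?_⟩
      · rw [hB, hc]
        ring
      · have h2 := two_mul (𝕜 := 𝕜) S hp hn comm_case k (B ⊓ H) H hH inf_le_right (by
          rw [hB, hc]
          ring) hact
        have h3 : finrank 𝕜 (T 𝕜 p S.r k B) ≤ finrank 𝕜 (D 𝕜 p S.r H k (B ⊓ H)) := by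
          rw [finrank_D]
          exact Finset.single_le_sum (f := fun X => finrank 𝕜 (T 𝕜 p S.r k X))
            (fun _ _ => Nat.zero_le _) (Finset.mem_filter.2 ⟨mem_par.2 ⟨inf_le_left, hc⟩, hBH⟩)
        omega
  obtain ⟨B, hB, hpos⟩ := h n le_rfl
  have hB1 : Nat.card B = 1 := by
    rw [hk] at hB
    have hpn : 0 < p ^ n := pow_pos hp.pos n
    have : p ^ n * 1 = p ^ n * Nat.card B := by rw [mul_one]; exact hB
    exact (Nat.eq_of_mul_eq_mul_left hpn this).symm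
  obtain rfl : B = ⊥ := Subgroup.card_eq_one.1 hB1
  have : Nontrivial (T 𝕜 p S.r n ⊥) := Module.finrank_pos_iff.1 hpos
  obtain ⟨z, hz⟩ := exists_ne (0 : T 𝕜 p S.r n ⊥)
  exact ⟨z.1, z.2, fun h => hz (Subtype.ext h)⟩

end main

end Vale.Agent.P240.LT
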